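import Mathlib

/-!
Helper library for S0423: the exponential law `nu`, the averaging operators `T c`, basic facts.
-/

open MeasureTheory Set

namespace Crest.Agent.L423

/-- density of the mean-one exponential law -/
noncomputable def dens (u : ℝ) : NNReal := ⟨Real.exp (-u), (Real.exp_pos _).le⟩

lemma measurable_dens : Measurable dens := by
  unfold dens
  exact Measurable.subtype_mk (by fun_prop)

/-- the mean-one exponential law -/
noncomputable def nu : Measure ℝ :=
  (volume.restrict (Ioi (0:ℝ))).withDensity (fun u => (dens u : ENNReal))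

lemma integral_nu (f : ℝ → ℝ) :
    ∫ u, f u ∂nu = ∫ u in Ioi (0:ℝ), f u * Real.exp (-u) := by
  unfold nu
  rw [integral_withDensity_eq_integral_smul measurable_dens]
  refine integral_congr_ae (Filter.Eventually.of_forall fun u => ?_)
  change Real.exp (-u) * f u = f u * Real.exp (-u)
  ring

lemma integrable_nu_iff (f : ℝ → ℝ) :
    Integrable f nu ↔ IntegrableOn (fun u => f u * Real.exp (-u)) (Ioi (0:ℝ)) := by
  unfold nu
  rw [integrable_withDensity_iff_integrable_smul measurable_dens]
  unfold IntegrableOn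
  refine integrable_congr (Filter.Eventually.of_forall fun u => ?_)
  change Real.exp (-u) * f u = f u * Real.exp (-u)
  ring

instance : IsProbabilityMeasure nu := by
  constructor
  have h1 : Integrable (fun _ : ℝ => (1:ℝ)) nu := by
    rw [integrable_nu_iff]
    simpa using integrableOn_exp_neg_Ioi 0
  have h2 : ∫ _u, (1:ℝ) ∂nu = 1 := by
    rw [integral_nu]
    simpa using integral_exp_neg_Ioi_zero
  have hfin : IsFiniteMeasure nu := by
    have := h1
    rw [integrable_const_iff] at this
    rcases this with h | h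
    · exact absurd h one_ne_zero
    · exact h
  rw [integral_const] at h2
  simp only [smul_eq_mul, mul_one] at h2
  have : (nu univ).toReal = 1 := h2
  have hne : nu univ ≠ ⊤ := measure_ne_top _ _
  rw [← ENNReal.ofReal_toReal hne, this, ENNReal.ofReal_one]

lemma ae_nu_pos : ∀ᵐ u ∂nu, 0 < u := by
  unfold nu
  apply withDensity_absolutelyContinuous
  exact ae_restrict_mem measurableSet_Ioi


/-- `∫_0^∞ u^n e^{-r u} du = n!/r^{n+1}` together with integrability. -/
lemma integrableOn_pow_mul_exp (n : ℕ) {r : ℝ} (hr : 0 < r) :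
    IntegrableOn (fun u : ℝ => u ^ n * Real.exp (-(r * u))) (Ioi (0:ℝ)) := by
  have h := integrableOn_rpow_mul_exp_neg_mul_rpow (p := 1) (s := n) (b := r)
    (by have : (0:ℝ) ≤ n := Nat.cast_nonneg n; linarith) one_pos hr
  refine h.congr_fun (fun u _ => ?_) measurableSet_Ioi
  simp [Real.rpow_natCast]

lemma integral_pow_mul_exp (n : ℕ) {r : ℝ} (hr : 0 < r) :
    ∫ u in Ioi (0:ℝ), u ^ n * Real.exp (-(r * u)) = (n.factorial : ℝ) / r ^ (n + 1) := by
  have h := Real.integral_rpow_mul_exp_neg_mul_Ioi (a := (n:ℝ) + 1) (r := r)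
    (by have : (0:ℝ) ≤ n := Nat.cast_nonneg n; linarith) hr
  rw [Real.Gamma_nat_eq_factorial] at h
  have h2 : ∫ u in Ioi (0:ℝ), u ^ n * Real.exp (-(r * u))
      = ∫ t in Ioi (0:ℝ), t ^ ((n:ℝ) + 1 - 1) * Real.exp (-(r * t)) := by
    refine setIntegral_congr_fun measurableSet_Ioi (fun u _ => ?_)
    simp [Real.rpow_natCast]
  rw [h2, h]
  have : (1 / r) ^ ((n:ℝ) + 1) = 1 / r ^ (n + 1) := by
    rw [show ((n:ℝ) + 1) = ((n + 1 : ℕ) : ℝ) by push_cast; ring, Real.rpow_natCast]
    simp
  rw [this]; ring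

lemma integrable_pow_mul_exp_nu (n : ℕ) {κ : ℝ} (hκ : κ < 1) :
    Integrable (fun u : ℝ => u ^ n * Real.exp (κ * u)) nu := by
  rw [integrable_nu_iff]
  refine (integrableOn_pow_mul_exp n (r := 1 - κ) (by linarith)).congr_fun (fun u _ => ?_)
    measurableSet_Ioi
  simp only
  rw [mul_assoc, ← Real.exp_add]
  congr 2; ring

lemma integral_pow_mul_exp_nu (n : ℕ) {κ : ℝ} (hκ : κ < 1) :
    ∫ u, u ^ n * Real.exp (κ * u) ∂nu = (n.factorial : ℝ) / (1 - κ) ^ (n + 1) := by
  rw [integral_nu, ← integral_pow_mul_exp n (r := 1 - κ) (by linarith)]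
  refine setIntegral_congr_fun measurableSet_Ioi (fun u _ => ?_)
  rw [mul_assoc, ← Real.exp_add]
  congr 2; ring

lemma integrable_pow_nu (n : ℕ) : Integrable (fun u : ℝ => u ^ n) nu := by
  simpa using integrable_pow_mul_exp_nu n (κ := 0) (by norm_num)

lemma integral_pow_nu (n : ℕ) : ∫ u, u ^ n ∂nu = (n.factorial : ℝ) := by
  simpa using integral_pow_mul_exp_nu n (κ := 0) (by norm_num)

lemma integrable_id_nu : Integrable (fun u : ℝ => u) nu := by
  simpa using integrable_pow_nu 1

lemma integral_id_nu : ∫ u, u ∂nu = 1 := by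
  simpa using integral_pow_nu 1

lemma integrable_exp_nu {κ : ℝ} (hκ : κ < 1) : Integrable (fun u : ℝ => Real.exp (κ * u)) nu := by
  simpa using integrable_pow_mul_exp_nu 0 hκ

lemma integral_exp_nu {κ : ℝ} (hκ : κ < 1) : ∫ u, Real.exp (κ * u) ∂nu = 1 / (1 - κ) := by
  simpa using integral_pow_mul_exp_nu 0 hκ

/-- The memoryless property of the exponential law. -/
lemma memoryless (f : ℝ → ℝ) (hf : Integrable f nu) {z : ℝ} (hz : 0 ≤ z) :
    ∫ u, f u ∂nu = (∫ u in Ioc 0 z, f u * Real.exp (-u))
      + Real.exp (-z) * ∫ u, f (z + u) ∂nu := by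
  rw [integrable_nu_iff] at hf
  rw [integral_nu, integral_nu]
  have hsplit : Ioi (0:ℝ) = Ioc 0 z ∪ Ioi z := (Ioc_union_Ioi_eq_Ioi hz).symm
  have hdisj : Disjoint (Ioc 0 z) (Ioi z) := by
    rw [Set.disjoint_left]; intro x hx hx'; exact absurd hx.2 (not_le.mpr hx')
  rw [hsplit, setIntegral_union hdisj measurableSet_Ioi
    (hf.mono_set (by rw [hsplit]; exact subset_union_left))
    (hf.mono_set (by rw [hsplit]; exact subset_union_right)), ← hsplit]
  congr 1
  have h := (measurePreserving_add_right volume z).setIntegral_preimage_emb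
    (measurableEmbedding_addRight z) (fun u => f u * Real.exp (-u)) (Ioi z)
  rw [← h, ← integral_const_mul]
  have : (fun x : ℝ => x + z) ⁻¹' Ioi z = Ioi 0 := by
    ext x; simp
  rw [this]
  refine setIntegral_congr_fun measurableSet_Ioi (fun u _ => ?_)
  rw [show -(u + z) = -z + -u by ring, Real.exp_add, add_comm u z]
  ring

lemma integrable_shift_nu (f : ℝ → ℝ) (hf : Integrable f nu) {z : ℝ} (hz : 0 ≤ z) :
    Integrable (fun u => f (z + u)) nu := by
  rw [integrable_nu_iff] at hf ⊢
  have h1 : IntegrableOn (fun u => f u * Real.exp (-u)) (Ioi z) :=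
    hf.mono_set (Ioi_subset_Ioi hz)
  have h := (measurePreserving_add_right volume z).integrableOn_comp_preimage
    (measurableEmbedding_addRight z) (f := fun u => f u * Real.exp (-u)) (s := Ioi z)
  have h2 := h.mpr h1
  have : (fun x : ℝ => x + z) ⁻¹' Ioi z = Ioi 0 := by
    ext x; simp
  rw [this] at h2
  have h3 : IntegrableOn (fun x => Real.exp z * ((fun u => f u * Real.exp (-u)) ∘ fun x => x + z) x)
      (Ioi 0) := h2.const_mul (Real.exp z)
  refine h3.congr_fun (fun u _ => ?_) measurableSet_Ioi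
  simp only [Function.comp]
  rw [show -(u + z) = -z + -u by ring, Real.exp_add, add_comm u z]
  have : Real.exp z * Real.exp (-z) = 1 := by rw [← Real.exp_add]; simp
  calc Real.exp z * (f (z + u) * (Real.exp (-z) * Real.exp (-u)))
      = (Real.exp z * Real.exp (-z)) * (f (z + u) * Real.exp (-u)) := by ring
    _ = f (z + u) * Real.exp (-u) := by rw [this]; ring

end Crest.Agent.L423
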