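import Mathlib
import Crest.Prelude.Def_TruncExpWeight

/-!
Sharpness half of S0423: the value `(3/4) e^{4/3} - e/3` is approached.
-/

set_option autoImplicit false

namespace Crest.Agent.L423

open MeasureTheory Set Filter Topology
open Crest.AlgGeometry (truncExpWeight)

/-- `wbar = 1 - g`. -/
noncomputable def wbar (z : ℝ) : ℝ := 1 - truncExpWeight z

theorem wbar_of_nonpos {z : ℝ} (hz : z ≤ 0) : wbar z = 0 := by
  simp [wbar, truncExpWeight, hz]

theorem wbar_of_pos {z : ℝ} (hz : 0 < z) : wbar z = 1 - (1 + z) * Real.exp (-z) := by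
  simp [wbar, truncExpWeight, not_le.mpr hz]

theorem wbar_nonneg (z : ℝ) : 0 ≤ wbar z := by
  rcases le_or_gt z 0 with hz | hz
  · rw [wbar_of_nonpos hz]
  · rw [wbar_of_pos hz]
    have h1 : 1 + z ≤ Real.exp z := by linarith [Real.add_one_le_exp z]
    have h2 : (1 + z) * Real.exp (-z) ≤ Real.exp z * Real.exp (-z) :=
      mul_le_mul_of_nonneg_right h1 (Real.exp_pos _).le
    rw [← Real.exp_add] at h2
    simp at h2
    linarith

theorem wbar_le_one (z : ℝ) : wbar z ≤ 1 := by
  rcases le_or_gt z 0 with hz | hz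
  · rw [wbar_of_nonpos hz]; norm_num
  · rw [wbar_of_pos hz]
    have : 0 ≤ (1 + z) * Real.exp (-z) := mul_nonneg (by linarith) (Real.exp_pos _).le
    linarith

theorem measurable_truncExpWeight : Measurable truncExpWeight := by
  unfold truncExpWeight
  refine Measurable.ite measurableSet_Iic measurable_const ?_
  fun_prop

theorem measurable_wbar : Measurable wbar := by
  unfold wbar
  exact measurable_const.sub measurable_truncExpWeight

/-- antiderivative of `wbar z * exp (-z/2)` on `z > 0`. -/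
noncomputable def prim (z : ℝ) : ℝ :=
  -2 * Real.exp (-z / 2) + (10 / 9 + 2 / 3 * z) * Real.exp (-(3 / 2) * z)

theorem hasDerivAt_prim (z : ℝ) :
    HasDerivAt prim ((1 - (1 + z) * Real.exp (-z)) * Real.exp (-z / 2)) z := by
  have h1 : HasDerivAt (fun z : ℝ => Real.exp (-z / 2)) (Real.exp (-z / 2) * (-1 / 2)) z := by
    have : HasDerivAt (fun z : ℝ => -z / 2) (-1 / 2) z := by
      simpa using ((hasDerivAt_id z).neg.div_const 2)
    exact this.exp
  have h2 : HasDerivAt (fun z : ℝ => Real.exp (-(3 / 2) * z))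
      (Real.exp (-(3 / 2) * z) * (-(3 / 2))) z := by
    have : HasDerivAt (fun z : ℝ => -(3 / 2 : ℝ) * z) (-(3 / 2)) z := by
      simpa using ((hasDerivAt_id z).const_mul (-(3 / 2 : ℝ)))
    exact this.exp
  have h3 : HasDerivAt (fun z : ℝ => (10 / 9 + 2 / 3 * z : ℝ)) (2 / 3) z := by
    simpa using ((hasDerivAt_id z).const_mul (2 / 3 : ℝ)).const_add (10 / 9 : ℝ)
  have h := (h1.const_mul (-2 : ℝ)).add (h3.mul h2)
  have e : Real.exp (-z) * Real.exp (-z / 2) = Real.exp (-(3 / 2) * z) := by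
    rw [← Real.exp_add]; congr 1; ring
  have e2 : (1 - (1 + z) * Real.exp (-z)) * Real.exp (-z / 2)
      = -2 * (Real.exp (-z / 2) * (-1 / 2)) +
      (2 / 3 * Real.exp (-(3 / 2) * z) + (10 / 9 + 2 / 3 * z) * (Real.exp (-(3 / 2) * z) * -(3 / 2))) := by
    have : (1 - (1 + z) * Real.exp (-z)) * Real.exp (-z / 2)
      = Real.exp (-z / 2) - (1 + z) * (Real.exp (-z) * Real.exp (-z / 2)) := by ring
    rw [this, e]
    ring
  rw [e2]
  exact h

theorem tendsto_prim : Tendsto prim atTop (𝓝 0) := by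
  have h1 : Tendsto (fun z : ℝ => Real.exp (-z / 2)) atTop (𝓝 0) := by
    have : Tendsto (fun z : ℝ => -z / 2) atTop atBot := by
      have : Tendsto (fun z : ℝ => (-1 / 2 : ℝ) * z) atTop atBot :=
        tendsto_id.const_mul_atTop_of_neg (by norm_num)
      refine this.congr (fun z => by ring)
    exact Real.tendsto_exp_atBot.comp this
  have h2 : Tendsto (fun z : ℝ => Real.exp (-(3 / 2) * z)) atTop (𝓝 0) := by
    have : Tendsto (fun z : ℝ => (-(3 / 2) : ℝ) * z) atTop atBot :=
      tendsto_id.const_mul_atTop_of_neg (by norm_num)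
    exact Real.tendsto_exp_atBot.comp this
  have h3 : Tendsto (fun z : ℝ => z * Real.exp (-(3 / 2) * z)) atTop (𝓝 0) := by
    have h0 := Real.tendsto_pow_mul_exp_neg_atTop_nhds_zero 1
    have h4 : Tendsto (fun z : ℝ => (3 / 2 : ℝ) * z) atTop atTop :=
      tendsto_id.const_mul_atTop (by norm_num)
    have h5 := (h0.comp h4).const_mul (2 / 3 : ℝ)
    simp only [mul_zero] at h5
    refine h5.congr (fun z => ?_)
    simp only [Function.comp, pow_one]
    rw [show -(3 / 2 * z) = -(3 / 2) * z by ring]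
    ring
  have := ((h1.const_mul (-2 : ℝ)).add ((h2.const_mul (10 / 9 : ℝ)).add (h3.const_mul (2 / 3 : ℝ))))
  simp only [mul_zero, add_zero] at this
  refine this.congr (fun z => ?_)
  unfold prim
  ring

theorem integrableOn_wbar_exp :
    IntegrableOn (fun z => wbar z * Real.exp (-z / 2)) (Ioi 0) := by
  have h := integrableOn_Ioi_deriv_of_nonneg' (g := prim) (a := 0) (l := 0)
    (g' := fun z => (1 - (1 + z) * Real.exp (-z)) * Real.exp (-z / 2))
    (fun x _ => hasDerivAt_prim x)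
    (fun x hx => by
      have := wbar_nonneg x
      rw [wbar_of_pos hx] at this
      exact mul_nonneg this (Real.exp_pos _).le) tendsto_prim
  refine h.congr_fun (fun z hz => ?_) measurableSet_Ioi
  simp only
  rw [wbar_of_pos hz]

theorem integral_wbar_exp : ∫ z in Ioi (0 : ℝ), wbar z * Real.exp (-z / 2) = 8 / 9 := by
  have h := integral_Ioi_of_hasDerivAt_of_nonneg' (g := prim) (a := 0) (l := 0)
    (g' := fun z => (1 - (1 + z) * Real.exp (-z)) * Real.exp (-z / 2))
    (fun x _ => hasDerivAt_prim x)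
    (fun x hx => by
      have := wbar_nonneg x
      rw [wbar_of_pos hx] at this
      exact mul_nonneg this (Real.exp_pos _).le) tendsto_prim
  have h2 : ∫ z in Ioi (0 : ℝ), wbar z * Real.exp (-z / 2)
      = ∫ z in Ioi (0 : ℝ), (1 - (1 + z) * Real.exp (-z)) * Real.exp (-z / 2) := by
    refine setIntegral_congr_fun measurableSet_Ioi (fun z hz => ?_)
    rw [wbar_of_pos hz]
  rw [h2, h]
  norm_num [prim]

/-- the key one–dimensional bound: `1 - E g(y + 2X) ≤ (4/9) e^{y/2}` for every real `y`. -/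
theorem one_dim (y : ℝ) :
    ∫ x in Ioi (0 : ℝ), wbar (y + 2 * x) * Real.exp (-x) ≤ 4 / 9 * Real.exp (y / 2) := by
  have h1 : ∫ x in Ioi (0 : ℝ), wbar (y + 2 * x) * Real.exp (-x)
      = (2 : ℝ)⁻¹ • ∫ u in Ioi (2 * 0 : ℝ), wbar (y + u) * Real.exp (-u / 2) := by
    rw [← integral_comp_mul_left_Ioi (fun u => wbar (y + u) * Real.exp (-u / 2)) 0
      (by norm_num : (0 : ℝ) < 2)]
    refine setIntegral_congr_fun measurableSet_Ioi (fun x _ => ?_)
    congr 2
    ring
  set f : ℝ → ℝ := indicator (Ioi 0) (fun z => wbar z * Real.exp (-z / 2)) with hf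
  have hfint : Integrable f := by
    rw [hf, integrable_indicator_iff measurableSet_Ioi]
    exact integrableOn_wbar_exp
  have hfI : ∫ z, f z = 8 / 9 := by
    rw [hf, integral_indicator measurableSet_Ioi]
    exact integral_wbar_exp
  have hfnn : ∀ z, 0 ≤ f z := by
    intro z
    rw [hf]
    exact indicator_nonneg (fun z _ => mul_nonneg (wbar_nonneg z) (Real.exp_pos _).le) z
  have h2 : ∫ u in Ioi (0 : ℝ), wbar (y + u) * Real.exp (-u / 2) ≤ Real.exp (y / 2) * (8 / 9) := by
    rw [← integral_indicator measurableSet_Ioi]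
    have h3 : ∫ u, Real.exp (y / 2) * f (y + u) = Real.exp (y / 2) * (8 / 9) := by
      rw [integral_const_mul, integral_add_left_eq_self (μ := volume) f y, hfI]
    rw [← h3]
    refine integral_mono_of_nonneg ?_ ((hfint.comp_add_left y).const_mul _) ?_
    · refine Eventually.of_forall (fun u => ?_)
      exact indicator_nonneg (fun z _ => mul_nonneg (wbar_nonneg _) (Real.exp_pos _).le) u
    · refine Eventually.of_forall (fun u => ?_)
      simp only
      by_cases hu : u ∈ Ioi (0 : ℝ)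
      · rw [indicator_of_mem hu]
        by_cases hyu : y + u ∈ Ioi (0 : ℝ)
        · rw [hf, indicator_of_mem hyu]
          have : Real.exp (y / 2) * (wbar (y + u) * Real.exp (-(y + u) / 2))
              = wbar (y + u) * (Real.exp (y / 2) * Real.exp (-(y + u) / 2)) := by ring
          rw [this, ← Real.exp_add]
          apply le_of_eq
          congr 2
          ring
        · have : y + u ≤ 0 := not_lt.mp hyu
          rw [wbar_of_nonpos this, zero_mul]
          exact mul_nonneg (Real.exp_pos _).le (hfnn _)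
      · rw [indicator_of_notMem hu]
        exact mul_nonneg (Real.exp_pos _).le (hfnn _)
  rw [h1, mul_zero, smul_eq_mul]
  calc (2 : ℝ)⁻¹ * ∫ u in Ioi (0 : ℝ), wbar (y + u) * Real.exp (-u / 2)
      ≤ (2 : ℝ)⁻¹ * (Real.exp (y / 2) * (8 / 9)) := by
        exact mul_le_mul_of_nonneg_left h2 (by norm_num)
    _ = 4 / 9 * Real.exp (y / 2) := by ring

/-- Lebesgue measure on the positive half line. -/
noncomputable abbrev mu0 : Measure ℝ := (volume : Measure ℝ).restrict (Ioi 0)

theorem setIntegral_pi_eq {N : ℕ} (F : (Fin N → ℝ) → ℝ) :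
    ∫ x in Set.pi Set.univ (fun _ : Fin N => Set.Ioi (0 : ℝ)), F x
      = ∫ x, F x ∂(Measure.pi fun _ : Fin N => mu0) := by
  rw [volume_pi, Measure.restrict_pi_pi]

theorem integral_pi_succ {n : ℕ} (F : (Fin (n + 1) → ℝ) → ℝ) :
    ∫ x, F x ∂(Measure.pi fun _ : Fin (n + 1) => mu0)
      = ∫ p : ℝ × (Fin n → ℝ), F (Fin.cons p.1 p.2) ∂(mu0.prod (Measure.pi fun _ : Fin n => mu0)) := by
  rw [← ((measurePreserving_piFinSuccAbove (fun _ : Fin (n + 1) => mu0) 0).symm).integral_comp']
  simp_rw [MeasurableEquiv.piFinSuccAbove_symm_apply, Fin.insertNthEquiv, Fin.insertNth_zero]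
  rfl

theorem integrable_exp_neg_mu0 : Integrable (fun x : ℝ => Real.exp (-x)) mu0 :=
  integrableOn_exp_neg_Ioi 0

theorem exp_neg_sum {N : ℕ} (x : Fin N → ℝ) : Real.exp (-∑ i, x i) = ∏ i, Real.exp (-x i) := by
  rw [← Real.exp_sum, Finset.sum_neg_distrib]

theorem integrable_exp_neg_sum (N : ℕ) :
    Integrable (fun x : Fin N → ℝ => Real.exp (-∑ i, x i)) (Measure.pi fun _ : Fin N => mu0) := by
  simp_rw [exp_neg_sum]
  exact Integrable.fintype_prod (fun _ => integrable_exp_neg_mu0)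

theorem integral_exp_neg_sum (N : ℕ) :
    ∫ x : Fin N → ℝ, Real.exp (-∑ i, x i) ∂(Measure.pi fun _ : Fin N => mu0) = 1 := by
  simp_rw [exp_neg_sum]
  rw [integral_fintype_prod_eq_prod (fun _ : Fin N => fun x : ℝ => Real.exp (-x))]
  simp only [mu0, integral_exp_neg_Ioi_zero, Finset.prod_const_one]

/-- the near-extremal coefficient vector `(2, -2/n, …, -2/n)`. -/
noncomputable def coef (n : ℕ) : Fin (n + 1) → ℝ := Fin.cons 2 (fun _ => -(2 / (n : ℝ)))

theorem sum_coef (n : ℕ) (hn : 1 ≤ n) : ∑ i, coef n i = 0 := by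
  have : (n : ℝ) ≠ 0 := by positivity
  simp only [coef, Fin.sum_univ_succ, Fin.cons_zero, Fin.cons_succ, Finset.sum_const,
    Finset.card_univ, Fintype.card_fin, nsmul_eq_mul]
  field_simp
  ring

theorem integral_wbar_le (n : ℕ) (hn : 1 ≤ n) :
    ∫ x, wbar (4 / 3 + ∑ i, coef n i * x i) * Real.exp (-∑ i, x i)
        ∂(Measure.pi fun _ : Fin (n + 1) => mu0)
      ≤ 4 / 9 * Real.exp (2 / 3) * ((1 + 1 / (n : ℝ)) ^ n)⁻¹ := by
  have hn0 : (0 : ℝ) < n := by exact_mod_cast hn
  rw [integral_pi_succ]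
  simp only [coef, Fin.sum_univ_succ, Fin.cons_zero, Fin.cons_succ]
  -- integrability on the product
  have hint : Integrable (fun p : ℝ × (Fin n → ℝ) =>
      wbar (4 / 3 + (2 * p.1 + ∑ i, -(2 / (n : ℝ)) * p.2 i)) * Real.exp (-(p.1 + ∑ i, p.2 i)))
      (mu0.prod (Measure.pi fun _ : Fin n => mu0)) := by
    have hdom : Integrable (fun p : ℝ × (Fin n → ℝ) => Real.exp (-p.1) * Real.exp (-∑ i, p.2 i))
        (mu0.prod (Measure.pi fun _ : Fin n => mu0)) :=
      Integrable.mul_prod integrable_exp_neg_mu0 (integrable_exp_neg_sum n)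
    refine hdom.mono' ?_ ?_
    · refine Measurable.aestronglyMeasurable ?_
      refine (measurable_wbar.comp ?_).mul ?_
      · fun_prop
      · fun_prop
    · refine Eventually.of_forall (fun p => ?_)
      rw [Real.norm_eq_abs, abs_of_nonneg (mul_nonneg (wbar_nonneg _) (Real.exp_pos _).le),
        ← Real.exp_add]
      have : -p.1 + -∑ i, p.2 i = -(p.1 + ∑ i, p.2 i) := by ring
      rw [this]
      exact mul_le_of_le_one_left (Real.exp_pos _).le (wbar_le_one _)
  rw [integral_prod_symm _ hint]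
  -- bound the inner integral
  have hinner : ∀ y : Fin n → ℝ,
      ∫ x, wbar (4 / 3 + (2 * x + ∑ i, -(2 / (n : ℝ)) * y i)) * Real.exp (-(x + ∑ i, y i)) ∂mu0
        ≤ 4 / 9 * Real.exp (2 / 3) * ∏ i, Real.exp (-(1 + 1 / (n : ℝ)) * y i) := by
    intro y
    have h1 := one_dim (4 / 3 + ∑ i, -(2 / (n : ℝ)) * y i)
    have h2 : ∫ x, wbar (4 / 3 + (2 * x + ∑ i, -(2 / (n : ℝ)) * y i)) *
          Real.exp (-(x + ∑ i, y i)) ∂mu0
        = (∫ x in Ioi (0 : ℝ), wbar (4 / 3 + ∑ i, -(2 / (n : ℝ)) * y i + 2 * x) * Real.exp (-x)) *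
          Real.exp (-∑ i, y i) := by
      rw [← integral_mul_const]
      refine integral_congr_ae (Eventually.of_forall (fun x => ?_))
      simp only
      rw [mul_assoc, ← Real.exp_add]
      congr 2 <;> ring
    rw [h2]
    have h3 : 4 / 9 * Real.exp (2 / 3) * ∏ i, Real.exp (-(1 + 1 / (n : ℝ)) * y i)
        = 4 / 9 * Real.exp ((4 / 3 + ∑ i, -(2 / (n : ℝ)) * y i) / 2) * Real.exp (-∑ i, y i) := by
      rw [← Real.exp_sum, mul_assoc, mul_assoc, ← Real.exp_add, ← Real.exp_add]
      congr 2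
      rw [add_div, Finset.sum_div, ← Finset.sum_neg_distrib, add_assoc, ← Finset.sum_add_distrib]
      congr 1
      · norm_num
      · refine Finset.sum_congr rfl (fun i _ => ?_)
        ring
    rw [h3]
    exact mul_le_mul_of_nonneg_right h1 (Real.exp_pos _).le
  have hb : -(1 + 1 / (n : ℝ)) < 0 := by
    have : 0 < 1 / (n : ℝ) := by positivity
    linarith
  have hrhs : Integrable (fun y : Fin n → ℝ =>
      4 / 9 * Real.exp (2 / 3) * ∏ i, Real.exp (-(1 + 1 / (n : ℝ)) * y i))
      (Measure.pi fun _ : Fin n => mu0) := by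
    refine Integrable.const_mul ?_ _
    exact Integrable.fintype_prod (f := fun _ : Fin n => fun x : ℝ => Real.exp (-(1 + 1 / (n : ℝ)) * x))
      (fun _ => integrableOn_exp_mul_Ioi hb 0)
  calc _ ≤ ∫ y : Fin n → ℝ, 4 / 9 * Real.exp (2 / 3) * ∏ i, Real.exp (-(1 + 1 / (n : ℝ)) * y i)
          ∂(Measure.pi fun _ : Fin n => mu0) :=
        integral_mono hint.integral_prod_right hrhs hinner
    _ = 4 / 9 * Real.exp (2 / 3) * ((1 + 1 / (n : ℝ)) ^ n)⁻¹ := by
        rw [integral_const_mul,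
          integral_fintype_prod_eq_prod (fun _ : Fin n => fun x : ℝ => Real.exp (-(1 + 1 / (n : ℝ)) * x))]
        simp only [mu0, integral_exp_mul_Ioi hb 0, Finset.prod_const, Finset.card_univ,
          Fintype.card_fin, mul_zero, Real.exp_zero]
        congr 1
        rw [← inv_pow]
        congr 1
        rw [neg_div_neg_eq, one_div]

theorem integral_g_ge (n : ℕ) (hn : 1 ≤ n) :
    1 - 4 / 9 * Real.exp (2 / 3) * ((1 + 1 / (n : ℝ)) ^ n)⁻¹ ≤
      ∫ x in Set.pi Set.univ (fun _ : Fin (n + 1) => Set.Ioi (0 : ℝ)),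
        truncExpWeight (4 / 3 + ∑ i, coef n i * x i) * Real.exp (-∑ i, x i) := by
  rw [setIntegral_pi_eq]
  have hw : Integrable (fun x : Fin (n + 1) → ℝ =>
      wbar (4 / 3 + ∑ i, coef n i * x i) * Real.exp (-∑ i, x i))
      (Measure.pi fun _ : Fin (n + 1) => mu0) := by
    refine (integrable_exp_neg_sum (n + 1)).mono' ?_ ?_
    · refine Measurable.aestronglyMeasurable ?_
      refine (measurable_wbar.comp ?_).mul ?_
      · fun_prop
      · fun_prop
    · refine Eventually.of_forall (fun p => ?_)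
      rw [Real.norm_eq_abs, abs_of_nonneg (mul_nonneg (wbar_nonneg _) (Real.exp_pos _).le)]
      exact mul_le_of_le_one_left (Real.exp_pos _).le (wbar_le_one _)
  have h1 : ∫ x, truncExpWeight (4 / 3 + ∑ i, coef n i * x i) * Real.exp (-∑ i, x i)
        ∂(Measure.pi fun _ : Fin (n + 1) => mu0)
      = 1 - ∫ x, wbar (4 / 3 + ∑ i, coef n i * x i) * Real.exp (-∑ i, x i)
        ∂(Measure.pi fun _ : Fin (n + 1) => mu0) := by
    rw [← integral_exp_neg_sum (n + 1), ← integral_sub (integrable_exp_neg_sum (n + 1)) hw]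
    refine integral_congr_ae (Eventually.of_forall (fun x => ?_))
    simp only [wbar]
    ring
  rw [h1]
  have := integral_wbar_le n hn
  linarith

/-- Sharpness half of S0423. -/
theorem sharp : ∀ ε : ℝ, 0 < ε → ∃ (N : ℕ) (a : Fin N → ℝ), 1 ≤ N ∧ ∑ i, a i = 0 ∧
      3 / 4 * Real.exp (4 / 3) - Real.exp 1 / 3 - ε <
        Real.exp (4 / 3) / (4 / 3) *
          ∫ x in Set.pi Set.univ (fun _ : Fin N => Set.Ioi (0 : ℝ)),
            Crest.AlgGeometry.truncExpWeight (4 / 3 + ∑ i, a i * x i) * Real.exp (-∑ i, x i) := by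
  intro ε hε
  have hlim : Tendsto (fun n : ℕ => 1 / 3 * Real.exp 2 * ((1 + 1 / (n : ℝ)) ^ n)⁻¹) atTop
      (𝓝 (1 / 3 * Real.exp 2 * (Real.exp 1)⁻¹)) :=
    ((Real.tendsto_one_add_div_pow_exp 1).inv₀ (Real.exp_pos 1).ne').const_mul _
  have hval : 1 / 3 * Real.exp 2 * (Real.exp 1)⁻¹ = Real.exp 1 / 3 := by
    rw [← Real.exp_neg, mul_assoc, ← Real.exp_add]
    norm_num
    ring
  rw [hval] at hlim
  have hev := (hlim.eventually (gt_mem_nhds (show Real.exp 1 / 3 < Real.exp 1 / 3 + ε by linarith))).and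
    (eventually_ge_atTop 1)
  obtain ⟨n, hn1, hn⟩ := hev.exists
  refine ⟨n + 1, coef n, by omega, sum_coef n hn, ?_⟩
  have h := integral_g_ge n hn
  have hpos : 0 < Real.exp (4 / 3) / (4 / 3) := by positivity
  have h2 := mul_le_mul_of_nonneg_left h hpos.le
  refine lt_of_lt_of_le ?_ h2
  have h3 : Real.exp (4 / 3) / (4 / 3) * (1 - 4 / 9 * Real.exp (2 / 3) * ((1 + 1 / (n : ℝ)) ^ n)⁻¹)
      = 3 / 4 * Real.exp (4 / 3) - 1 / 3 * Real.exp 2 * ((1 + 1 / (n : ℝ)) ^ n)⁻¹ := by
    have : Real.exp 2 = Real.exp (4 / 3) * Real.exp (2 / 3) := by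
      rw [← Real.exp_add]; norm_num
    rw [this]
    ring
  rw [h3]
  linarith

end Crest.Agent.L423
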