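import Crest.Agent.Lib_S0423.Ops
import Crest.Agent.Lib_S0423.Sharp

/-!
The bridge between the `N`-dimensional orthant integral and the iterated operators `Tl`.
-/

open MeasureTheory Set

namespace Crest.Agent.L423

lemma integrable_pi_succ {n : ℕ} {F : (Fin (n + 1) → ℝ) → ℝ}
    (hF : Integrable F (Measure.pi fun _ : Fin (n + 1) => mu0)) :
    Integrable (fun p : ℝ × (Fin n → ℝ) => F (Fin.cons p.1 p.2))
      (mu0.prod (Measure.pi fun _ : Fin n => mu0)) := by
  have h := ((measurePreserving_piFinSuccAbove (fun _ : Fin (n + 1) => mu0) 0).symm).integrable_comp_emb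
    (MeasurableEquiv.measurableEmbedding _) (g := F)
  have h2 := h.2 hF
  refine h2.congr (Filter.Eventually.of_forall fun p => ?_)
  simp only [Function.comp, MeasurableEquiv.piFinSuccAbove_symm_apply, Fin.insertNthEquiv,
    Fin.insertNth_zero]
  rfl

lemma integrable_bdd {N : ℕ} {f : ℝ → ℝ} (hf : Measurable f) {C : ℝ} (hC : ∀ x, |f x| ≤ C)
    (a : Fin N → ℝ) (s : ℝ) :
    Integrable (fun x : Fin N → ℝ => f (s + ∑ i, a i * x i) * Real.exp (-∑ i, x i))
      (Measure.pi fun _ : Fin N => mu0) := by
  refine ((integrable_exp_neg_sum N).const_mul C).mono' ?_ (Filter.Eventually.of_forall fun x => ?_)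
  · apply Measurable.aestronglyMeasurable
    apply Measurable.mul
    · apply hf.comp
      fun_prop
    · fun_prop
  · rw [norm_mul, Real.norm_eq_abs, Real.norm_eq_abs, abs_of_pos (Real.exp_pos _)]
    exact mul_le_mul_of_nonneg_right (hC _) (Real.exp_pos _).le

theorem bridge {f : ℝ → ℝ} (hf : Measurable f) {C : ℝ} (hC : ∀ x, |f x| ≤ C) (N : ℕ)
    (a : Fin N → ℝ) (s : ℝ) :
    ∫ x in Set.pi Set.univ (fun _ : Fin N => Set.Ioi (0 : ℝ)),
      f (s + ∑ i, a i * x i) * Real.exp (-∑ i, x i) = Tl (List.ofFn a) f s := by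
  rw [setIntegral_pi_eq]
  induction N generalizing s with
  | zero =>
    rw [Measure.pi_of_empty]
    simp [Tl]
  | succ n ih =>
    rw [integral_pi_succ, integral_prod _ (integrable_pi_succ (integrable_bdd hf hC a s))]
    rw [List.ofFn_succ]
    show _ = T (a 0) (Tl (List.ofFn fun i => a i.succ) f) s
    unfold T
    refine integral_congr_ae (Filter.Eventually.of_forall fun u => ?_)
    simp only [Fin.sum_univ_succ, Fin.cons_zero, Fin.cons_succ]
    rw [← ih (fun i => a i.succ) (s + a 0 * u), ← integral_mul_const]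
    refine integral_congr_ae (Filter.Eventually.of_forall fun y => ?_)
    simp only
    rw [mul_assoc, ← Real.exp_add]
    congr 2
    · ring
    · ring

end Crest.Agent.L423
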