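import Crest.Agent.Lib_S0423.Compare

/-!
The one-variable calculus bound `4/9 e^{-1/3} ≤ T c hh (4/3 - c)` for `c ≥ 1/3`.
-/

open MeasureTheory Set

namespace Crest.Agent.L423

lemma cubic_le_exp {r : ℝ} (hr : 0 ≤ r) : 1 + r + r ^ 2 / 2 + r ^ 3 / 6 ≤ Real.exp r := by
  have h := Real.sum_le_exp_of_nonneg hr 4
  simp only [Finset.sum_range_succ, Finset.sum_range_zero, Nat.factorial] at h
  norm_num at h
  linarith

lemma exp_neg_third_le : Real.exp (-(1 / 3)) ≤ 81 / 113 := by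
  have h := cubic_le_exp (r := 1 / 3) (by norm_num)
  have h2 : (113 : ℝ) / 81 ≤ Real.exp (1 / 3) := by
    refine le_trans (by norm_num) h
  rw [Real.exp_neg]
  rw [inv_le_comm₀ (Real.exp_pos _) (by norm_num)]
  refine le_trans (by norm_num) h2

theorem theta_bound {c : ℝ} (hc : 1 / 3 ≤ c) :
    4 / 9 * Real.exp (-(1 / 3)) ≤ T c hh (4 / 3 - c) := by
  have hc0 : 0 < c := by linarith
  rcases le_total (4 / 3) c with h | h
  · rw [T_hh_of_nonpos hc0 (by linarith)]
    set y : ℝ := 2 / 3 / c - 1 / 3 with hy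
    have h1 : 1 + y ≤ Real.exp y := by linarith [Real.add_one_le_exp y]
    have h1' : 0 ≤ 1 + y := by
      have : 0 < 2 / 3 / c := by positivity
      linarith
    have h2 : (1 + y) ^ 2 ≤ Real.exp y ^ 2 := by gcongr
    have h3 : Real.exp ((4 / 3 - c) / c) = Real.exp y ^ 2 * Real.exp (-(1 / 3)) := by
      rw [← Real.exp_nat_mul, ← Real.exp_add]
      congr 1
      rw [hy]; field_simp; ring
    rw [h3]
    have h4 : (1 + y) ^ 2 * (c ^ 2 / (1 + c) ^ 2) = 4 / 9 := by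
      rw [hy]; field_simp; ring
    have h5 : 0 ≤ c ^ 2 / (1 + c) ^ 2 := by positivity
    have h6 : 0 < Real.exp (-(1 / 3)) := Real.exp_pos _
    calc 4 / 9 * Real.exp (-(1 / 3)) = (1 + y) ^ 2 * (c ^ 2 / (1 + c) ^ 2) * Real.exp (-(1 / 3)) := by
          rw [h4]
      _ ≤ Real.exp y ^ 2 * (c ^ 2 / (1 + c) ^ 2) * Real.exp (-(1 / 3)) := by gcongr
      _ = _ := by ring
  · rw [T_hh_of_nonneg hc0 (by linarith)]
    set r : ℝ := 4 / 3 - c with hr
    have hr0 : 0 ≤ r := by linarith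
    have hr1 : r ≤ 1 := by linarith
    have hcr : c = 4 / 3 - r := by linarith
    have hq := cubic_le_exp hr0
    have hE := exp_neg_third_le
    have hu : 0 < 1 + c := by linarith
    -- exp(-r) ≤ 1/q
    have hqpos : 0 < 1 + r + r ^ 2 / 2 + r ^ 3 / 6 := by positivity
    have hexp : Real.exp (-r) ≤ 1 / (1 + r + r ^ 2 / 2 + r ^ 3 / 6) := by
      rw [Real.exp_neg, one_div]
      exact inv_anti₀ hqpos hq
    have hB : 0 ≤ (1 + r) / (1 + c) + c / (1 + c) ^ 2 := by positivity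
    have key : 1 / (1 + r + r ^ 2 / 2 + r ^ 3 / 6) * ((1 + r) / (1 + c) + c / (1 + c) ^ 2)
        ≤ 77 / 113 := by
      rw [hcr]
      have hu' : 0 < 1 + (4 / 3 - r) := by linarith
      rw [div_add_div _ _ hu'.ne' (pow_pos hu' 2).ne', div_mul_div_comm, div_le_div_iff₀
        (by positivity) (by norm_num)]
      nlinarith [mul_nonneg hr0 (sub_nonneg.2 hr1), mul_nonneg hr0 hr0,
        mul_nonneg (mul_nonneg hr0 hr0) hr0, mul_nonneg (mul_nonneg hr0 hr0) (mul_nonneg hr0 hr0),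
        mul_nonneg (mul_nonneg hr0 hr0) (sub_nonneg.2 hr1),
        mul_nonneg (mul_nonneg (mul_nonneg hr0 hr0) hr0) (sub_nonneg.2 hr1)]
    have : Real.exp (-r) * ((1 + r) / (1 + c) + c / (1 + c) ^ 2) ≤ 77 / 113 :=
      le_trans (mul_le_mul_of_nonneg_right hexp hB) key
    linarith

end Crest.Agent.L423
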