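import Crest.Agent.Lib_S0423.Explicit

/-!
The comparison of a log-concave stop-loss transform with that of a single shifted exponential.
-/

open MeasureTheory Set

namespace Crest.Agent.L423

/-- the stop-loss transform of `c (X - 1)`. -/
noncomputable def Lc (c s : ℝ) : ℝ := T c pp (s - c)

lemma Lc_of_le {c s : ℝ} (hc : 0 < c) (h : s ≤ c) : Lc c s = c * Real.exp ((s - c) / c) :=
  T_pp_of_nonpos hc (by linarith)

lemma Lc_of_ge {c s : ℝ} (hc : 0 < c) (h : c ≤ s) : Lc c s = s := by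
  unfold Lc; rw [T_pp_of_nonneg hc.le (by linarith)]; ring

lemma Lip_Lc (c : ℝ) : Lip 1 (Lc c) := by
  refine ⟨zero_le_one, fun x y => ?_⟩
  have := (Lip_pp.T c).2 (x - c) (y - c)
  rwa [show x - c - (y - c) = x - y by ring] at this

lemma K_Lc (c t : ℝ) : K (Lc c) t = T c hh (t - c) := by
  have h1 : K (Lc c) t = K (T c pp) (t - c) := by
    unfold K Lc
    congr 1; funext v; congr 2; ring
  rw [h1, ← T_K Lip_pp]
  have : K pp = hh := funext K_pp
  rw [this]

lemma exists_c {p Λp : ℝ} (hp : 0 < p) (h : p ≤ Λp) :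
    ∃ c, p ≤ c ∧ c * Real.exp ((p - c) / c) = Λp := by
  set C := p + Real.exp 1 * Λp with hC
  have hΛ : 0 < Λp := by linarith
  have hpC : p ≤ C := by
    have : 0 ≤ Real.exp 1 * Λp := by positivity
    linarith
  have hcont : ContinuousOn (fun c : ℝ => c * Real.exp ((p - c) / c)) (Icc p C) := by
    apply ContinuousOn.mul continuousOn_id
    apply Real.continuous_exp.comp_continuousOn
    apply ContinuousOn.div (by fun_prop) continuousOn_id
    intro x hx
    have : 0 < x := lt_of_lt_of_le hp hx.1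
    exact this.ne'
  have hivt := intermediate_value_Icc hpC hcont
  have hmem : Λp ∈ Icc (p * Real.exp ((p - p) / p)) (C * Real.exp ((p - C) / C)) := by
    constructor
    · simpa using h
    · have hCpos : 0 < C := by linarith
      have h1 : Real.exp (-1) ≤ Real.exp ((p - C) / C) := by
        apply Real.exp_le_exp.mpr
        rw [le_div_iff₀ hCpos]; linarith
      have h2 : Real.exp 1 * Λp ≤ C := by linarith
      have h3 : Real.exp 1 * Real.exp (-1) = 1 := by rw [← Real.exp_add]; simp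
      calc Λp = (Real.exp 1 * Λp) * Real.exp (-1) := by
            rw [mul_comm (Real.exp 1), mul_assoc, h3, mul_one]
        _ ≤ C * Real.exp (-1) := mul_le_mul_of_nonneg_right h2 (Real.exp_pos _).le
        _ ≤ C * Real.exp ((p - C) / C) := mul_le_mul_of_nonneg_left h1 hCpos.le
  obtain ⟨c, hc, hce⟩ := hivt hmem
  exact ⟨c, hc.1, hce⟩

lemma upper_left {Λ : ℝ → ℝ} (hLC : LC Λ) (hid : ∀ s, s ≤ Λ s) {p c : ℝ} (hp : 0 < p)
    (hpc : p ≤ c) (hE : c * Real.exp ((p - c) / c) = Λ p) {s : ℝ} (hs : s ≤ p) :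
    Λ s ≤ c * Real.exp ((s - c) / c) := by
  by_contra hcon
  push Not at hcon
  have hc : 0 < c := by linarith
  have hsp : s < p := by
    rcases eq_or_lt_of_le hs with h | h
    · rw [h, hE] at hcon; exact absurd hcon (lt_irrefl _)
    · exact h
  obtain ⟨E, hEdef⟩ : ∃ E, E = c * Real.exp ((s - c) / c) := ⟨_, rfl⟩
  rw [← hEdef] at hcon
  have hEpos : 0 < E := by rw [hEdef]; positivity
  have hρ : 1 < Λ s / E := by rw [lt_div_iff₀ hEpos]; linarith
  have hlr : 0 < Real.log (Λ s / E) := Real.log_pos hρ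
  obtain ⟨ε, hεdef⟩ : ∃ ε, ε = min (1 / (2 * c)) (Real.log (Λ s / E) / (2 * (p - s))) := ⟨_, rfl⟩
  have hps : 0 < p - s := by linarith
  have hεpos : 0 < ε := by
    rw [hεdef]; apply lt_min <;> positivity
  have hε1 : ε ≤ 1 / (2 * c) := by rw [hεdef]; exact min_le_left _ _
  have hε2 : ε ≤ Real.log (Λ s / E) / (2 * (p - s)) := by rw [hεdef]; exact min_le_right _ _
  have hcε : c * ε ≤ 1 / 2 := by
    have := mul_le_mul_of_nonneg_left hε1 hc.le
    have h2 : c * (1 / (2 * c)) = 1 / 2 := by field_simp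
    linarith
  have hε3 : ε * (p - s) ≤ Real.log (Λ s / E) / 2 := by
    have := mul_le_mul_of_nonneg_right hε2 hps.le
    have h2 : Real.log (Λ s / E) / (2 * (p - s)) * (p - s) = Real.log (Λ s / E) / 2 := by
      field_simp
    linarith
  obtain ⟨κ, hκdef⟩ : ∃ κ, κ = 1 / c - ε := ⟨_, rfl⟩
  have hcκ : c * κ = 1 - c * ε := by rw [hκdef]; field_simp
  have hκpos : 0 < κ := by
    have : 0 < c * κ := by rw [hcκ]; linarith
    exact (pos_iff_pos_of_mul_pos this).mp hc
  have hΛp : 0 < Λ p := by rw [← hE]; positivity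
  obtain ⟨m, hmdef⟩ : ∃ m, m = Λ p * Real.exp (-(κ * p)) := ⟨_, rfl⟩
  have hm : 0 < m := by rw [hmdef]; positivity
  obtain ⟨z, hzdef⟩ : ∃ z, z = 1 / κ := ⟨_, rfl⟩
  have hκz : κ * z = 1 := by rw [hzdef]; field_simp
  have hcz : c ≤ z := by
    rw [hzdef, le_div_iff₀ hκpos, hcκ]
    have : 0 ≤ c * ε := by positivity
    linarith
  -- value at s
  have h_s : m * Real.exp (κ * s) < Λ s := by
    have e1 : m * Real.exp (κ * s) = E * Real.exp (ε * (p - s)) := by
      rw [hmdef, ← hE, hEdef, mul_assoc, mul_assoc, mul_assoc, ← Real.exp_add, ← Real.exp_add,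
        ← Real.exp_add]
      congr 2
      rw [hκdef]; field_simp; ring
    have e2 : Real.exp (ε * (p - s)) < Λ s / E := by
      calc Real.exp (ε * (p - s)) ≤ Real.exp (Real.log (Λ s / E) / 2) := Real.exp_le_exp.mpr hε3
        _ < Real.exp (Real.log (Λ s / E)) := Real.exp_lt_exp.mpr (by linarith)
        _ = Λ s / E := Real.exp_log (by linarith)
    rw [e1]
    calc E * Real.exp (ε * (p - s)) < E * (Λ s / E) := mul_lt_mul_of_pos_left e2 hEpos
      _ = Λ s := by field_simp
  -- value at z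
  have h_z : m * Real.exp (κ * z) < Λ z := by
    have e1 : m * Real.exp (κ * z) = c * Real.exp (ε * p) := by
      rw [hκz, hmdef, ← hE, mul_assoc, mul_assoc, ← Real.exp_add, ← Real.exp_add]
      congr 2
      rw [hκdef]; field_simp; ring
    have e2 : Real.exp (ε * p) ≤ Real.exp (c * ε) := by
      apply Real.exp_le_exp.mpr
      nlinarith
    have e3 : Real.exp (c * ε) * (1 - c * ε) < 1 := by
      have hne : -(c * ε) ≠ 0 := by
        have : 0 < c * ε := by positivity
        linarith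
      have h1 := Real.add_one_lt_exp hne
      have h2 : Real.exp (c * ε) * Real.exp (-(c * ε)) = 1 := by rw [← Real.exp_add]; simp
      calc Real.exp (c * ε) * (1 - c * ε) < Real.exp (c * ε) * Real.exp (-(c * ε)) :=
            mul_lt_mul_of_pos_left (by linarith) (Real.exp_pos _)
        _ = 1 := h2
    have e4 : c * Real.exp (c * ε) < z := by
      rw [hzdef, lt_div_iff₀ hκpos]
      calc c * Real.exp (c * ε) * κ = Real.exp (c * ε) * (c * κ) := by ring
        _ = Real.exp (c * ε) * (1 - c * ε) := by rw [hcκ]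
        _ < 1 := e3
    rw [e1]
    calc c * Real.exp (ε * p) ≤ c * Real.exp (c * ε) := mul_le_mul_of_nonneg_left e2 hc.le
      _ < z := e4
      _ ≤ Λ z := hid z
  have hfin := hLC κ m hm s p z hs (hpc.trans hcz) h_s h_z
  have : m * Real.exp (κ * p) = Λ p := by
    rw [hmdef, mul_assoc, ← Real.exp_add]; simp
  rw [this] at hfin
  exact absurd hfin (lt_irrefl _)

lemma lower_mid {Λ : ℝ → ℝ} (hLC : LC Λ) (h0 : ∀ s, 0 ≤ Λ s) (hid : ∀ s, s ≤ Λ s) {p c : ℝ}
    (hp : 0 < p) (hpc : p ≤ c) (hE : c * Real.exp ((p - c) / c) = Λ p) {s : ℝ} (hs : p ≤ s)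
    (hsc : s ≤ c) : c * Real.exp ((s - c) / c) ≤ Λ s := by
  by_contra hcon
  push Not at hcon
  have hc : 0 < c := by linarith
  obtain ⟨E, hEdef⟩ : ∃ E, E = c * Real.exp ((s - c) / c) := ⟨_, rfl⟩
  rw [← hEdef] at hcon
  have hEpos : 0 < E := by rw [hEdef]; positivity
  obtain ⟨θ, hθdef⟩ : ∃ θ, θ = (Λ s / E + 1) / 2 := ⟨_, rfl⟩
  have hq0 : 0 ≤ Λ s / E := div_nonneg (h0 s) hEpos.le
  have hq1 : Λ s / E < 1 := by rw [div_lt_one hEpos]; exact hcon
  have hθ0 : 0 < θ := by rw [hθdef]; linarith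
  have hθ1 : θ < 1 := by rw [hθdef]; linarith
  have hθE : Λ s < θ * E := by
    have : θ * E = (Λ s + E) / 2 := by rw [hθdef]; field_simp
    rw [this]; linarith
  have hΛp : 0 < Λ p := by rw [← hE]; positivity
  have hm : 0 < θ * c * Real.exp (-1) := by positivity
  have key : ∀ x, θ * c * Real.exp (-1) * Real.exp (1 / c * x) = θ * (c * Real.exp ((x - c) / c)) := by
    intro x
    rw [mul_assoc, mul_assoc, ← Real.exp_add]
    congr 3
    field_simp; ring
  have h_p : θ * c * Real.exp (-1) * Real.exp (1 / c * p) < Λ p := by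
    rw [key, hE]
    calc θ * Λ p < 1 * Λ p := mul_lt_mul_of_pos_right hθ1 hΛp
      _ = Λ p := one_mul _
  have h_c : θ * c * Real.exp (-1) * Real.exp (1 / c * c) < Λ c := by
    rw [key]
    simp only [sub_self, zero_div, Real.exp_zero, mul_one]
    calc θ * c < 1 * c := mul_lt_mul_of_pos_right hθ1 hc
      _ = c := one_mul _
      _ ≤ Λ c := hid c
  have hfin := hLC (1 / c) (θ * c * Real.exp (-1)) hm p s c hs hsc h_p h_c
  rw [key, ← hEdef] at hfin
  linarith

/-- the comparison theorem. -/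
theorem compare {L : ℝ} {Λ : ℝ → ℝ} (hLip : Lip L Λ) (hLC : LC Λ) (h0 : ∀ s, 0 ≤ Λ s)
    (hid : ∀ s, s ≤ Λ s) {p : ℝ} (hp : 0 < p) :
    ∃ c, p ≤ c ∧ K (Lc c) (p + 1) ≤ K Λ (p + 1) := by
  obtain ⟨c, hpc, hE⟩ := exists_c hp (hid p)
  have hc : 0 < c := by linarith
  refine ⟨c, hpc, ?_⟩
  unfold K
  apply integral_mono ((Lip_Lc c).K_integrable _) (hLip.K_integrable _)
  intro v
  simp only
  rcases le_total v 1 with hv | hv
  · apply mul_le_mul_of_nonneg_left _ (by linarith)
    rcases le_total (p + 1 - v) c with hsc | hsc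
    · rw [Lc_of_le hc hsc]
      exact lower_mid hLC h0 hid hp hpc hE (by linarith) hsc
    · rw [Lc_of_ge hc hsc]
      exact hid _
  · apply mul_le_mul_of_nonpos_left _ (by linarith)
    rw [Lc_of_le hc (by linarith)]
    exact upper_left hLC hid hp hpc hE (by linarith)

end Crest.Agent.L423
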