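import Crest.Agent.Lib_S0423.KOp

/-!
Explicit evaluations: `K pp`, `T c pp`, `T c hh`.
-/

open MeasureTheory Set

namespace Crest.Agent.L423

/-- `hh y = 0` for `y ≤ 0` and `1 - (1+y) e^{-y}` for `y > 0`. -/
noncomputable def hh (y : ℝ) : ℝ := if y ≤ 0 then 0 else 1 - (1 + y) * Real.exp (-y)

lemma pp_of_nonneg {s : ℝ} (h : 0 ≤ s) : pp s = s := max_eq_left h
lemma pp_of_nonpos {s : ℝ} (h : s ≤ 0) : pp s = 0 := max_eq_right h

theorem K_pp (y : ℝ) : K pp y = hh y := by
  unfold K hh
  split_ifs with hy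
  · -- integrand vanishes
    have : ∀ᵐ v ∂nu, (1 - v) * pp (y - v) = 0 := by
      filter_upwards [ae_nu_pos] with v hv
      rw [pp_of_nonpos (by linarith)]; ring
    rw [integral_congr_ae this]; simp
  · push Not at hy
    rw [memoryless _ (Lip_pp.K_integrable y) hy.le]
    have h2 : ∫ u, (1 - (y + u)) * pp (y - (y + u)) ∂nu = 0 := by
      have : ∀ᵐ u ∂nu, (1 - (y + u)) * pp (y - (y + u)) = 0 := by
        filter_upwards [ae_nu_pos] with u hu
        rw [pp_of_nonpos (by linarith)]; ring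
      rw [integral_congr_ae this]; simp
    rw [h2, mul_zero, add_zero]
    have h3 : ∫ u in Ioc 0 y, (1 - u) * pp (y - u) * Real.exp (-u)
        = ∫ u in Ioc 0 y, (1 - u) * (y - u) * Real.exp (-u) := by
      refine setIntegral_congr_fun measurableSet_Ioc (fun u hu => ?_)
      rw [pp_of_nonneg (by linarith [hu.2])]
    rw [h3, ← intervalIntegral.integral_of_le hy.le]
    have hderiv : ∀ x ∈ uIcc 0 y, HasDerivAt
        (fun v : ℝ => (-v ^ 2 + (y - 1) * v - 1) * Real.exp (-v))
        ((1 - x) * (y - x) * Real.exp (-x)) x := by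
      intro x _
      have h1 : HasDerivAt (fun v : ℝ => -v ^ 2 + (y - 1) * v - 1) (-(2 * x) + (y - 1)) x := by
        have a1 : HasDerivAt (fun v : ℝ => v ^ 2) (2 * x) x := by
          simpa using hasDerivAt_pow 2 x
        have a2 : HasDerivAt (fun v : ℝ => (y - 1) * v) (y - 1) x := by
          simpa using (hasDerivAt_id x).const_mul (y - 1)
        exact (a1.neg.add a2).sub_const 1
      have h2 : HasDerivAt (fun v : ℝ => Real.exp (-v)) (-Real.exp (-x)) x := by
        have := (hasDerivAt_neg x).exp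
        simpa using this
      exact (h1.fun_mul h2).congr_deriv (by ring)
    rw [intervalIntegral.integral_eq_sub_of_hasDerivAt hderiv]
    · simp only [neg_zero, Real.exp_zero]
      ring
    · apply Continuous.intervalIntegrable
      fun_prop

lemma Lip_hh : Lip 2 hh := by
  have h := Lip_pp.K
  have : K pp = hh := funext K_pp
  rw [this] at h
  simpa using h

lemma hh_of_nonpos {y : ℝ} (h : y ≤ 0) : hh y = 0 := by unfold hh; rw [if_pos h]
lemma hh_of_pos {y : ℝ} (h : 0 < y) : hh y = 1 - (1 + y) * Real.exp (-y) := by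
  unfold hh; rw [if_neg (not_le.mpr h)]

lemma hh_of_nonneg {y : ℝ} (h : 0 ≤ y) : hh y = 1 - (1 + y) * Real.exp (-y) := by
  rcases eq_or_lt_of_le h with h | h
  · rw [← h, hh_of_nonpos le_rfl]; simp
  · exact hh_of_pos h

theorem T_pp_of_nonneg {c s : ℝ} (hc : 0 ≤ c) (hs : 0 ≤ s) : T c pp s = s + c := by
  have h1 := T_affine c 1 0 s
  rw [T_eq] at h1 ⊢
  have : ∀ᵐ u ∂nu, pp (s + c * u) = 1 * (s + c * u) + 0 := by
    filter_upwards [ae_nu_pos] with u hu
    rw [pp_of_nonneg (by positivity)]; ring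
  rw [integral_congr_ae this, h1]; ring

theorem T_pp_of_nonpos {c s : ℝ} (hc : 0 < c) (hs : s ≤ 0) : T c pp s = c * Real.exp (s / c) := by
  have hz : 0 ≤ -s / c := div_nonneg (by linarith) hc.le
  rw [T_memoryless (Lip_pp.integrable c s) hz]
  have e2 : s + c * (-s / c) = 0 := by field_simp; ring
  rw [e2, T_pp_of_nonneg hc.le le_rfl]
  have h1 : ∫ u in Ioc 0 (-s / c), pp (s + c * u) * Real.exp (-u) = 0 := by
    apply setIntegral_eq_zero_of_forall_eq_zero
    intro u hu
    have : c * u ≤ c * (-s / c) := mul_le_mul_of_nonneg_left hu.2 hc.le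
    rw [pp_of_nonpos (by linarith)]; ring
  rw [h1]
  have : -(-s / c) = s / c := by ring
  rw [this]; ring

theorem T_hh_of_nonneg {c τ : ℝ} (hc : 0 < c) (hτ : 0 ≤ τ) :
    T c hh τ = 1 - Real.exp (-τ) * ((1 + τ) / (1 + c) + c / (1 + c) ^ 2) := by
  rw [T_eq]
  have hk : -c < 1 := by linarith
  have h0 := integral_pow_mul_exp_nu 0 hk
  have h1 := integral_pow_mul_exp_nu 1 hk
  have i0 := integrable_pow_mul_exp_nu 0 hk
  have i1 := integrable_pow_mul_exp_nu 1 hk
  simp only [pow_zero, one_mul, Nat.factorial_zero, Nat.cast_one, zero_add, pow_one, sub_neg_eq_add]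
    at h0 i0
  simp only [pow_one, Nat.factorial_one, Nat.cast_one, sub_neg_eq_add] at h1 i1
  have : ∀ᵐ u ∂nu, hh (τ + c * u) = 1 - (Real.exp (-τ) * (1 + τ)) * Real.exp (-c * u)
      - (Real.exp (-τ) * c) * (u * Real.exp (-c * u)) := by
    filter_upwards [ae_nu_pos] with u hu
    rw [hh_of_pos (by positivity), show -(τ + c * u) = -τ + -c * u by ring, Real.exp_add]
    ring
  rw [integral_congr_ae this,
    integral_sub (f := fun a => 1 - Real.exp (-τ) * (1 + τ) * Real.exp (-c * a))
      (g := fun a => Real.exp (-τ) * c * (a * Real.exp (-c * a)))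
      ((integrable_const _).sub (i0.const_mul _)) (i1.const_mul _),
    integral_sub (f := fun _ => (1:ℝ)) (g := fun a => Real.exp (-τ) * (1 + τ) * Real.exp (-c * a))
      (integrable_const _) (i0.const_mul _), integral_const_mul,
    integral_const_mul, h0, h1]
  simp only [integral_const, probReal_univ, smul_eq_mul, mul_one]
  have : (1 + 1 : ℕ) = 2 := rfl
  rw [this]
  have h1c : (1 + c) ≠ 0 := by positivity
  field_simp
  ring

theorem T_hh_of_nonpos {c τ : ℝ} (hc : 0 < c) (hτ : τ ≤ 0) :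
    T c hh τ = Real.exp (τ / c) * (c ^ 2 / (1 + c) ^ 2) := by
  have hz : 0 ≤ -τ / c := div_nonneg (by linarith) hc.le
  rw [T_memoryless (Lip_hh.integrable c τ) hz]
  have e2 : τ + c * (-τ / c) = 0 := by field_simp; ring
  rw [e2, T_hh_of_nonneg hc le_rfl]
  have h1 : ∫ u in Ioc 0 (-τ / c), hh (τ + c * u) * Real.exp (-u) = 0 := by
    apply setIntegral_eq_zero_of_forall_eq_zero
    intro u hu
    have : c * u ≤ c * (-τ / c) := mul_le_mul_of_nonneg_left hu.2 hc.le
    rw [hh_of_nonpos (by linarith)]; ring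
  rw [h1]
  have : -(-τ / c) = τ / c := by ring
  rw [this]
  simp only [neg_zero, Real.exp_zero, add_zero, one_mul, zero_add]
  congr 1
  have h1c : (1 + c) ≠ 0 := by positivity
  field_simp
  ring

end Crest.Agent.L423
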