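import Crest.Agent.Lib_S0423.LC

/-!
The operator `K f y = ∫_0^∞ (1 - v) e^{-v} f (y - v) dv`; it commutes with the `T c`.
-/

open MeasureTheory Set

namespace Crest.Agent.L423

/-- `K f y = E[(1 - X) f (y - X)]`. -/
noncomputable def K (f : ℝ → ℝ) (y : ℝ) : ℝ := ∫ v, (1 - v) * f (y - v) ∂nu

lemma integrable_sq_nu : Integrable (fun u : ℝ => u ^ 2) nu := integrable_pow_nu 2

lemma Lip.K_integrable {L : ℝ} {f : ℝ → ℝ} (h : Lip L f) (y : ℝ) :
    Integrable (fun v => (1 - v) * f (y - v)) nu := by
  have hb : Integrable (fun v : ℝ => |f y| + (|f y| + L) * |v| + L * v ^ 2) nu :=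
    ((integrable_const _).add (integrable_abs_nu.const_mul _)).add (integrable_sq_nu.const_mul _)
  refine hb.mono' ?_ (Filter.Eventually.of_forall fun v => ?_)
  · exact ((by fun_prop : Continuous fun v : ℝ => 1 - v).mul
      (h.continuous.comp (by fun_prop))).aestronglyMeasurable
  · rw [Real.norm_eq_abs, abs_mul]
    have h1 := h.bound y (-v)
    rw [abs_neg, ← sub_eq_add_neg] at h1
    have h2 : |1 - v| ≤ 1 + |v| := by
      have := abs_sub (1:ℝ) v
      simpa using this
    have h3 : |v| * |v| = v ^ 2 := by rw [← abs_mul, ← sq, abs_of_nonneg (sq_nonneg v)]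
    have hL := h.1
    calc |1 - v| * |f (y - v)| ≤ (1 + |v|) * (|f y| + L * |v|) :=
          mul_le_mul h2 h1 (abs_nonneg _) (by positivity)
      _ = |f y| + (|f y| + L) * |v| + L * (|v| * |v|) := by ring
      _ = _ := by rw [h3]

lemma integrable_one_add_abs_nu : Integrable (fun v : ℝ => 1 + |v|) nu :=
  (integrable_const _).add integrable_abs_nu

lemma integral_abs_nu : ∫ v, |v| ∂nu = 1 := by
  rw [← integral_id_nu]
  refine integral_congr_ae ?_
  filter_upwards [ae_nu_pos] with v hv
  exact abs_of_pos hv

lemma Lip.K {L : ℝ} {f : ℝ → ℝ} (h : Lip L f) : Lip (2 * L) (K f) := by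
  refine ⟨by have := h.1; linarith, fun x y => ?_⟩
  unfold Crest.Agent.L423.K
  rw [← integral_sub (h.K_integrable x) (h.K_integrable y)]
  have h1 : ∀ v : ℝ, ‖(1 - v) * f (x - v) - (1 - v) * f (y - v)‖ ≤ (1 + |v|) * (L * |x - y|) := by
    intro v
    rw [Real.norm_eq_abs, ← mul_sub, abs_mul]
    have h2 : |1 - v| ≤ 1 + |v| := by
      have := abs_sub (1:ℝ) v
      simpa using this
    have h3 := h.2 (x - v) (y - v)
    rw [show x - v - (y - v) = x - y by ring] at h3
    exact mul_le_mul h2 h3 (abs_nonneg _) (by positivity)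
  have h2 := norm_integral_le_of_norm_le (integrable_one_add_abs_nu.mul_const (L * |x - y|))
    (Filter.Eventually.of_forall h1)
  rw [Real.norm_eq_abs, integral_mul_const, integral_add (integrable_const _) integrable_abs_nu,
    integral_abs_nu] at h2
  simp only [integral_const, probReal_univ, smul_eq_mul, mul_one] at h2
  linarith

/-- Fubini: `T c` and `K` commute on Lipschitz functions. -/
theorem T_K {L : ℝ} {f : ℝ → ℝ} (h : Lip L f) (c y : ℝ) : T c (K f) y = K (T c f) y := by
  have hL := h.1
  have hint : Integrable (Function.uncurry fun u v : ℝ => (1 - v) * f (y + c * u - v))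
      (nu.prod nu) := by
    have hb1 : Integrable (fun z : ℝ × ℝ => (|f y| + L * |c| * |z.1|) * (1 + |z.2|)) (nu.prod nu) :=
      Integrable.mul_prod (f := fun u : ℝ => |f y| + L * |c| * |u|) (g := fun v : ℝ => 1 + |v|)
        ((integrable_const _).add (integrable_abs_nu.const_mul _)) integrable_one_add_abs_nu
    have hb2 : Integrable (fun z : ℝ × ℝ => (1:ℝ) * (L * (|z.2| + z.2 ^ 2))) (nu.prod nu) :=
      Integrable.mul_prod (f := fun _ : ℝ => (1:ℝ)) (g := fun v : ℝ => L * (|v| + v ^ 2))
        (integrable_const _) ((integrable_abs_nu.add integrable_sq_nu).const_mul _)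
    refine (hb1.add hb2).mono' ?_ (Filter.Eventually.of_forall fun z => ?_)
    · have : Continuous (Function.uncurry fun u v : ℝ => (1 - v) * f (y + c * u - v)) := by
        have hc := h.continuous
        simp only [Function.uncurry_def]
        fun_prop
      exact this.aestronglyMeasurable
    · obtain ⟨u, v⟩ := z
      simp only [Function.uncurry_apply_pair, Pi.add_apply]
      rw [Real.norm_eq_abs, abs_mul]
      have h1 := h.bound y (c * u - v)
      rw [← add_sub_assoc] at h1
      have h4 : |c * u - v| ≤ |c| * |u| + |v| := by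
        have := abs_sub (c * u) v
        rwa [abs_mul] at this
      have h2 : |1 - v| ≤ 1 + |v| := by
        have := abs_sub (1:ℝ) v
        simpa using this
      have h3 : |v| * |v| = v ^ 2 := by rw [← abs_mul, ← sq, abs_of_nonneg (sq_nonneg v)]
      have h5 : |f (y + c * u - v)| ≤ |f y| + L * (|c| * |u| + |v|) := by
        have := mul_le_mul_of_nonneg_left h4 hL
        linarith
      calc |1 - v| * |f (y + c * u - v)| ≤ (1 + |v|) * (|f y| + L * (|c| * |u| + |v|)) :=
            mul_le_mul h2 h5 (abs_nonneg _) (by positivity)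
        _ = (|f y| + L * |c| * |u|) * (1 + |v|) + 1 * (L * (|v| + |v| * |v|)) := by ring
        _ = _ := by rw [h3]
  have hswap := integral_integral_swap hint
  rw [T_eq]
  unfold Crest.Agent.L423.K
  rw [hswap]
  refine integral_congr_ae (Filter.Eventually.of_forall fun v => ?_)
  simp only
  rw [T_eq, ← integral_const_mul]
  refine integral_congr_ae (Filter.Eventually.of_forall fun u => ?_)
  simp only
  congr 2; ring

theorem Tl_K {L : ℝ} {f : ℝ → ℝ} (h : Lip L f) (l : List ℝ) : Tl l (K f) = K (Tl l f) := by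
  induction l with
  | nil => rfl
  | cons c l ih =>
    funext y
    change T c (Tl l (K f)) y = K (T c (Tl l f)) y
    rw [ih, T_K (h.Tl l)]

end Crest.Agent.L423
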