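import Crest.Agent.Lib_S0423.Ops

/-!
Log-concavity (in interval form) and its preservation under the operators `T c`.
-/

open MeasureTheory Set

namespace Crest.Agent.L423

/-- log-concavity of a nonnegative function, in "interval" form: for every exponential
`m e^{κ s}` the set where `φ` is strictly above it is order-connected. -/
def LC (φ : ℝ → ℝ) : Prop :=
  ∀ κ m : ℝ, 0 < m → ∀ u v w : ℝ, u ≤ v → v ≤ w →
    m * Real.exp (κ * u) < φ u → m * Real.exp (κ * w) < φ w → m * Real.exp (κ * v) < φ v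

lemma exists_pos_of_setIntegral_pos {f : ℝ → ℝ} {A : Set ℝ} (hA : MeasurableSet A)
    (h : 0 < ∫ x in A, f x) : ∃ x ∈ A, 0 < f x := by
  by_contra hcon
  push Not at hcon
  exact absurd (setIntegral_nonpos hA hcon) (not_le.mpr h)

lemma exists_neg_of_setIntegral_neg {f : ℝ → ℝ} {A : Set ℝ} (hA : MeasurableSet A)
    (h : ∫ x in A, f x < 0) : ∃ x ∈ A, f x < 0 := by
  by_contra hcon
  push Not at hcon
  exact absurd (setIntegral_nonneg hA hcon) (not_le.mpr h)

lemma LC.reflect {φ : ℝ → ℝ} (h : LC φ) : LC (fun s => φ (-s)) := by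
  intro κ m hm u v w huv hvw hu hw
  have := h (-κ) m hm (-w) (-v) (-u) (by linarith) (by linarith)
    (by simpa using hw) (by simpa using hu)
  simpa using this

lemma T_reflect (c : ℝ) (φ : ℝ → ℝ) (s : ℝ) : T c φ s = T (-c) (fun x => φ (-x)) (-s) := by
  rw [T_eq, T_eq]
  congr 1; funext u; congr 1; ring

lemma Lip.reflect {L : ℝ} {φ : ℝ → ℝ} (h : Lip L φ) : Lip L (fun s => φ (-s)) := by
  refine ⟨h.1, fun x y => ?_⟩
  have := h.2 (-x) (-y)
  have h2 : |(-x) - (-y)| = |x - y| := by
    rw [show (-x) - (-y) = -(x - y) by ring, abs_neg]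
  rwa [h2] at this

theorem LC.T_pos {L : ℝ} {φ : ℝ → ℝ} (hL : Lip L φ) (h0 : ∀ x, 0 ≤ φ x) (h : LC φ) {c : ℝ}
    (hc : 0 < c) : LC (T c φ) := by
  intro κ m hm u v w huv hvw hu hw
  by_cases hck : c * κ < 1
  · -- main case
    have h1ck : 0 < 1 - c * κ := by linarith
    obtain ⟨m', hm'⟩ : ∃ m' : ℝ, m' = m * (1 - c * κ) := ⟨_, rfl⟩
    have hm'pos : 0 < m' := by rw [hm']; exact mul_pos hm h1ck
    obtain ⟨δ, hδ⟩ : ∃ δ : ℝ → ℝ, ∀ r, δ r = φ r - m' * Real.exp (κ * r) := ⟨_, fun _ => rfl⟩
    have hδf : δ = fun r => φ r - m' * Real.exp (κ * r) := funext hδ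
    have hint : ∀ s, Integrable (fun z => δ (s + c * z)) nu := by
      intro s
      have h1 := (hL.integrable c s).sub (integrable_exp_comp hck m' s)
      refine h1.congr (Filter.Eventually.of_forall fun z => ?_)
      simp only [Pi.sub_apply, hδ]
    have hD : ∀ s, T c δ s = T c φ s - m * Real.exp (κ * s) := by
      intro s
      rw [hδf, T_sub (f := φ) (g := fun x => m' * Real.exp (κ * x)) (hL.integrable c s)
        (integrable_exp_comp hck m' s), T_exp hck, hm']
      congr 1
      field_simp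
    by_contra hv
    push Not at hv
    have Du : 0 < T c δ u := by rw [hD]; linarith
    have Dw : 0 < T c δ w := by rw [hD]; linarith
    have Dv : T c δ v ≤ 0 := by rw [hD]; linarith
    -- r0
    obtain ⟨r0, hr0v, hr0⟩ : ∃ r0, r0 ≤ v ∧ 0 < δ r0 := by
      have hz : 0 ≤ (v - u) / c := div_nonneg (by linarith) hc.le
      have e := T_memoryless (hint u) hz
      have e2 : u + c * ((v - u) / c) = v := by field_simp; ring
      rw [e2] at e
      have hpos : 0 < ∫ z in Ioc 0 ((v - u) / c), δ (u + c * z) * Real.exp (-z) := by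
        have : Real.exp (-((v - u) / c)) * T c δ v ≤ 0 :=
          mul_nonpos_of_nonneg_of_nonpos (Real.exp_pos _).le Dv
        linarith
      obtain ⟨z, hz1, hz2⟩ := exists_pos_of_setIntegral_pos measurableSet_Ioc hpos
      refine ⟨u + c * z, ?_, ?_⟩
      · have : c * z ≤ c * ((v - u) / c) := mul_le_mul_of_nonneg_left hz1.2 hc.le
        linarith
      · exact (pos_iff_pos_of_mul_pos hz2).mpr (Real.exp_pos _)
    -- r1
    obtain ⟨r1, hvr1, hr1w, hr1⟩ : ∃ r1, v ≤ r1 ∧ r1 ≤ w ∧ δ r1 < 0 := by
      have hz : 0 ≤ (w - v) / c := div_nonneg (by linarith) hc.le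
      have e := T_memoryless (hint v) hz
      have e2 : v + c * ((w - v) / c) = w := by field_simp; ring
      rw [e2] at e
      have hneg : ∫ z in Ioc 0 ((w - v) / c), δ (v + c * z) * Real.exp (-z) < 0 := by
        have : 0 < Real.exp (-((w - v) / c)) * T c δ w := mul_pos (Real.exp_pos _) Dw
        linarith
      obtain ⟨z, hz1, hz2⟩ := exists_neg_of_setIntegral_neg measurableSet_Ioc hneg
      refine ⟨v + c * z, ?_, ?_, ?_⟩
      · have : 0 ≤ c * z := mul_nonneg hc.le hz1.1.le
        linarith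
      · have : c * z ≤ c * ((w - v) / c) := mul_le_mul_of_nonneg_left hz1.2 hc.le
        linarith
      · by_contra hcon
        push Not at hcon
        exact absurd (mul_nonneg hcon (Real.exp_pos (-z)).le) (not_le.mpr hz2)
    -- r2
    obtain ⟨r2, hwr2, hr2⟩ : ∃ r2, w ≤ r2 ∧ 0 < δ r2 := by
      obtain ⟨z, hz1, hz2⟩ := exists_pos_of_setIntegral_pos measurableSet_Ioi Dw
      refine ⟨w + c * z, ?_, ?_⟩
      · have : 0 ≤ c * z := mul_nonneg hc.le (le_of_lt hz1)
        linarith
      · exact (pos_iff_pos_of_mul_pos hz2).mpr (Real.exp_pos _)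
    have := h κ m' hm'pos r0 r1 r2 (by linarith) (by linarith)
      (by rw [hδ] at hr0; linarith) (by rw [hδ] at hr2; linarith)
    rw [hδ] at hr1
    linarith
  · -- c κ ≥ 1
    push Not at hck
    have hz : 0 ≤ (w - v) / c := div_nonneg (by linarith) hc.le
    have e := T_memoryless (hL.integrable c v) hz
    have e2 : v + c * ((w - v) / c) = w := by field_simp; ring
    rw [e2] at e
    have hnn : 0 ≤ ∫ z in Ioc 0 ((w - v) / c), φ (v + c * z) * Real.exp (-z) :=
      setIntegral_nonneg measurableSet_Ioc (fun z _ => mul_nonneg (h0 _) (Real.exp_pos _).le)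
    have h1 : Real.exp (-((w - v) / c)) * (m * Real.exp (κ * w))
        < Real.exp (-((w - v) / c)) * T c φ w := mul_lt_mul_of_pos_left hw (Real.exp_pos _)
    have h2 : m * Real.exp (κ * v) ≤ Real.exp (-((w - v) / c)) * (m * Real.exp (κ * w)) := by
      have : Real.exp (κ * v) ≤ Real.exp (-((w - v) / c)) * Real.exp (κ * w) := by
        rw [← Real.exp_add]
        apply Real.exp_le_exp.mpr
        have hk : 1 / c ≤ κ := by
          rw [div_le_iff₀ hc]; linarith
        have : (w - v) / c = (w - v) * (1 / c) := by ring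
        rw [this]
        nlinarith [mul_le_mul_of_nonneg_left hk (by linarith : (0:ℝ) ≤ w - v)]
      calc m * Real.exp (κ * v) ≤ m * (Real.exp (-((w - v) / c)) * Real.exp (κ * w)) :=
            mul_le_mul_of_nonneg_left this hm.le
        _ = _ := by ring
    linarith

theorem LC.T {L : ℝ} {φ : ℝ → ℝ} (hL : Lip L φ) (h0 : ∀ x, 0 ≤ φ x) (h : LC φ) (c : ℝ) :
    LC (T c φ) := by
  rcases lt_trichotomy c 0 with hc | hc | hc
  · have h1 : LC (Crest.Agent.L423.T (-c) (fun x => φ (-x))) :=
      LC.T_pos hL.reflect (fun x => h0 _) h.reflect (by linarith)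
    have h2 := h1.reflect
    have : (fun s => Crest.Agent.L423.T (-c) (fun x => φ (-x)) (-s)) = Crest.Agent.L423.T c φ := by
      funext s; rw [T_reflect c φ s]
    rwa [this] at h2
  · subst hc
    have : Crest.Agent.L423.T 0 φ = φ := by funext s; exact T_zero φ s
    rwa [this]
  · exact LC.T_pos hL h0 h hc

/-- the positive part. -/
noncomputable def pp (s : ℝ) : ℝ := max s 0

lemma pp_nonneg (s : ℝ) : 0 ≤ pp s := le_max_right _ _

lemma le_pp (s : ℝ) : s ≤ pp s := le_max_left _ _

lemma Lip_pp : Lip 1 pp := by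
  refine ⟨zero_le_one, fun x y => ?_⟩
  unfold pp
  rw [one_mul]
  exact abs_max_sub_max_le_abs x y 0

lemma LC_pp : LC pp := by
  intro κ m hm u v w huv hvw hu hw
  have hupos : 0 < u := by
    by_contra hcon
    push Not at hcon
    have : pp u = 0 := max_eq_right hcon
    rw [this] at hu
    exact absurd hu (not_lt.mpr (mul_pos hm (Real.exp_pos _)).le)
  have hvpos : 0 < v := by linarith
  have hwpos : 0 < w := by linarith
  have eu : pp u = u := max_eq_left hupos.le
  have ev : pp v = v := max_eq_left hvpos.le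
  have ew : pp w = w := max_eq_left hwpos.le
  rw [eu] at hu; rw [ew] at hw; rw [ev]
  rcases eq_or_lt_of_le (huv.trans hvw) with huw | huw
  · have : v = u := by linarith
    rw [this]; exact hu
  -- convexity of the exponential
  have hconv : ConvexOn ℝ univ (fun s : ℝ => Real.exp (κ * s)) := by
    have := convexOn_exp.comp_linearMap (LinearMap.lsmul ℝ ℝ κ)
    simpa [Function.comp_def] using this
  set a := (w - v) / (w - u) with ha
  set b := (v - u) / (w - u) with hb
  have hwu : 0 < w - u := by linarith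
  have ha0 : 0 ≤ a := div_nonneg (by linarith) hwu.le
  have hb0 : 0 ≤ b := div_nonneg (by linarith) hwu.le
  have hab : a + b = 1 := by rw [ha, hb]; field_simp; ring
  have hv : a * u + b * w = v := by rw [ha, hb]; field_simp; ring
  have := hconv.2 (mem_univ u) (mem_univ w) ha0 hb0 hab
  simp only [smul_eq_mul] at this
  rw [hv] at this
  have h3 : m * Real.exp (κ * v) ≤ a * (m * Real.exp (κ * u)) + b * (m * Real.exp (κ * w)) := by
    have := mul_le_mul_of_nonneg_left this hm.le
    linarith
  rcases eq_or_lt_of_le ha0 with ha' | ha'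
  · have hb1 : b = 1 := by linarith
    rw [← ha', hb1] at h3 hv
    linarith
  · have : a * (m * Real.exp (κ * u)) < a * u := mul_lt_mul_of_pos_left hu ha'
    have : b * (m * Real.exp (κ * w)) ≤ b * w := mul_le_mul_of_nonneg_left hw.le hb0
    linarith

lemma Tl_nonneg {f : ℝ → ℝ} (hf : ∀ x, 0 ≤ f x) (l : List ℝ) (s : ℝ) : 0 ≤ Tl l f s := by
  induction l generalizing s with
  | nil => exact hf s
  | cons c l ih => exact T_nonneg ih s

theorem LC.Tl {L : ℝ} {φ : ℝ → ℝ} (hL : Lip L φ) (h0 : ∀ x, 0 ≤ φ x) (h : LC φ) (l : List ℝ) :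
    LC (Tl l φ) := by
  induction l with
  | nil => exact h
  | cons c l ih => exact LC.T (hL.Tl l) (Tl_nonneg h0 l) ih c

end Crest.Agent.L423
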