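import Crest.Agent.Lib_S0423.Calc
import Crest.Prelude.Def_TruncExpWeight

/-!
The upper bound for the iterated operators.
-/

open MeasureTheory Set
open Crest.AlgGeometry (truncExpWeight)

namespace Crest.Agent.L423

lemma Tl_id (l : List ℝ) (s : ℝ) : Tl l (fun x => x) s = s + l.sum := by
  induction l generalizing s with
  | nil => simp [Tl]
  | cons c l ih =>
    have h1 : Tl l (fun x => x) = fun x => 1 * x + l.sum := by
      funext x; rw [ih]; ring
    show T c (Tl l (fun x => x)) s = _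
    rw [h1, T_affine, List.sum_cons]; ring

lemma Lip_id : Lip 1 (fun x : ℝ => x) := ⟨by norm_num, fun x y => by simp⟩

lemma Tl_mono {L L' : ℝ} {f g : ℝ → ℝ} (hf : Lip L f) (hg : Lip L' g) (hfg : ∀ x, f x ≤ g x)
    (l : List ℝ) (s : ℝ) : Tl l f s ≤ Tl l g s := by
  induction l generalizing s with
  | nil => exact hfg s
  | cons c l ih =>
    exact T_mono (fun s => (hf.Tl l).integrable c s) (fun s => (hg.Tl l).integrable c s) ih s

lemma Tl_one_sub {L : ℝ} {f : ℝ → ℝ} (hf : Lip L f) (l : List ℝ) (s : ℝ) :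
    Tl l (fun x => 1 - f x) s = 1 - Tl l f s := by
  induction l generalizing s with
  | nil => rfl
  | cons c l ih =>
    have h1 : Tl l (fun x => 1 - f x) = fun x => (fun _ => (1:ℝ)) x - Tl l f x := by
      funext x; rw [ih]
    show T c (Tl l (fun x => 1 - f x)) s = 1 - T c (Tl l f) s
    rw [h1, T_sub (f := fun _ => (1:ℝ)) (g := Tl l f) (integrable_const _)
      ((hf.Tl l).integrable c s), T_const]

lemma truncExpWeight_eq : truncExpWeight = fun y => 1 - hh y := by
  funext y
  unfold truncExpWeight hh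
  split_ifs <;> ring

theorem Tl_hh_ge (l : List ℝ) (hl : l.sum = 0) :
    4 / 9 * Real.exp (-(1 / 3)) ≤ Tl l hh (4 / 3) := by
  have hK : hh = K pp := (funext K_pp).symm
  rw [hK, Tl_K Lip_pp l]
  have hid : ∀ s, s ≤ Tl l pp s := by
    intro s
    have := Tl_mono Lip_id Lip_pp le_pp l s
    rw [Tl_id, hl, add_zero] at this
    exact this
  obtain ⟨c, hc, hcmp⟩ := compare (Lip_pp.Tl l) (LC.Tl Lip_pp pp_nonneg LC_pp l)
    (Tl_nonneg pp_nonneg l) hid (p := 1 / 3) (by norm_num)
  have e : (1 / 3 + 1 : ℝ) = 4 / 3 := by norm_num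
  rw [e, K_Lc] at hcmp
  exact le_trans (theta_bound hc) hcmp

theorem Tl_truncExpWeight_le (l : List ℝ) (hl : l.sum = 0) :
    Tl l truncExpWeight (4 / 3) ≤ 1 - 4 / 9 * Real.exp (-(1 / 3)) := by
  rw [truncExpWeight_eq, Tl_one_sub Lip_hh]
  linarith [Tl_hh_ge l hl]

end Crest.Agent.L423
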