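import Crest.Agent.Lib_S0423.Basic

/-!
The averaging operators `T c f s = E f (s + c X)`, `X` a mean-one exponential variable, and their
iterates `Tl`.
-/

open MeasureTheory Set

namespace Crest.Agent.L423

/-- `T c f s = E f (s + c X)`. -/
noncomputable def T (c : ℝ) (f : ℝ → ℝ) (s : ℝ) : ℝ :=
  ∫ u in Ioi (0:ℝ), f (s + c * u) * Real.exp (-u)

/-- iterated averaging: `Tl [c₁, …, c_N] f s = E f (s + c₁ X₁ + ⋯ + c_N X_N)`. -/
noncomputable def Tl : List ℝ → (ℝ → ℝ) → ℝ → ℝ
  | [], f => f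
  | c :: l, f => T c (Tl l f)

/-- (stated here so that the equation lemmas of `Tl` are generated once, in this module) -/
lemma Tl_nil (f : ℝ → ℝ) : Tl [] f = f := by simp [Tl]

lemma Tl_cons (c : ℝ) (l : List ℝ) (f : ℝ → ℝ) : Tl (c :: l) f = T c (Tl l f) := by simp [Tl]

lemma T_eq (c : ℝ) (f : ℝ → ℝ) (s : ℝ) : T c f s = ∫ u, f (s + c * u) ∂nu := by
  rw [integral_nu]; rfl

/-- Lipschitz functions with a real constant. -/
def Lip (L : ℝ) (f : ℝ → ℝ) : Prop := 0 ≤ L ∧ ∀ x y, |f x - f y| ≤ L * |x - y|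

lemma Lip.continuous {L : ℝ} {f : ℝ → ℝ} (h : Lip L f) : Continuous f := by
  have : LipschitzWith (Real.toNNReal L) f := by
    apply LipschitzWith.of_dist_le_mul
    intro x y
    rw [Real.dist_eq, Real.dist_eq, Real.coe_toNNReal _ h.1]
    exact h.2 x y
  exact this.continuous

lemma Lip.bound {L : ℝ} {f : ℝ → ℝ} (h : Lip L f) (s x : ℝ) : |f (s + x)| ≤ |f s| + L * |x| := by
  have h1 := h.2 (s + x) s
  have h2 : |f (s + x)| ≤ |f (s + x) - f s| + |f s| := by
    have := abs_add_le (f (s + x) - f s) (f s)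
    simpa using this
  have h3 : s + x - s = x := by ring
  rw [h3] at h1
  linarith

lemma integrable_abs_nu : Integrable (fun u : ℝ => |u|) nu := integrable_id_nu.abs

lemma Lip.integrable {L : ℝ} {f : ℝ → ℝ} (h : Lip L f) (c s : ℝ) :
    Integrable (fun u => f (s + c * u)) nu := by
  have hb : Integrable (fun u : ℝ => |f s| + L * |c| * |u|) nu :=
    (integrable_const _).add (integrable_abs_nu.const_mul _)
  refine hb.mono' ?_ (Filter.Eventually.of_forall fun u => ?_)
  · exact (h.continuous.comp (by fun_prop)).aestronglyMeasurable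
  · rw [Real.norm_eq_abs]
    have := h.bound s (c * u)
    rw [abs_mul] at this
    linarith [this]

lemma T_mono {c : ℝ} {f g : ℝ → ℝ} (hf : ∀ s, Integrable (fun u => f (s + c * u)) nu)
    (hg : ∀ s, Integrable (fun u => g (s + c * u)) nu) (hfg : ∀ x, f x ≤ g x) (s : ℝ) :
    T c f s ≤ T c g s := by
  rw [T_eq, T_eq]
  exact integral_mono (hf s) (hg s) (fun u => hfg _)

lemma T_nonneg {c : ℝ} {f : ℝ → ℝ} (hf : ∀ x, 0 ≤ f x) (s : ℝ) : 0 ≤ T c f s := by
  rw [T_eq]; exact integral_nonneg (fun u => hf _)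

lemma T_const (c k s : ℝ) : T c (fun _ => k) s = k := by
  rw [T_eq]; simp

lemma T_zero (f : ℝ → ℝ) (s : ℝ) : T 0 f s = f s := by
  rw [T_eq]; simp

lemma T_affine (c α β s : ℝ) : T c (fun x => α * x + β) s = α * (s + c) + β := by
  rw [T_eq]
  have h1 : (fun u : ℝ => α * (s + c * u) + β) = fun u => (α * c) * u + (α * s + β) := by
    funext u; ring
  rw [h1, integral_add (integrable_id_nu.const_mul _) (integrable_const _), integral_const_mul,
    integral_id_nu]
  simp
  ring

lemma T_sub {c : ℝ} {f g : ℝ → ℝ} {s : ℝ} (hf : Integrable (fun u => f (s + c * u)) nu)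
    (hg : Integrable (fun u => g (s + c * u)) nu) :
    T c (fun x => f x - g x) s = T c f s - T c g s := by
  rw [T_eq, T_eq, T_eq, integral_sub hf hg]

lemma T_add {c : ℝ} {f g : ℝ → ℝ} {s : ℝ} (hf : Integrable (fun u => f (s + c * u)) nu)
    (hg : Integrable (fun u => g (s + c * u)) nu) :
    T c (fun x => f x + g x) s = T c f s + T c g s := by
  rw [T_eq, T_eq, T_eq, integral_add hf hg]

lemma T_shift (c d : ℝ) (f : ℝ → ℝ) (s : ℝ) : T c (fun x => f (x + d)) s = T c f (s + d) := by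
  rw [T_eq, T_eq]
  congr 1; funext u; congr 1; ring

lemma Lip.T {L : ℝ} {f : ℝ → ℝ} (h : Lip L f) (c : ℝ) : Lip L (T c f) := by
  refine ⟨h.1, fun x y => ?_⟩
  rw [T_eq, T_eq, ← integral_sub (h.integrable c x) (h.integrable c y)]
  have h1 : ∀ u : ℝ, ‖f (x + c * u) - f (y + c * u)‖ ≤ L * |x - y| := by
    intro u
    rw [Real.norm_eq_abs]
    have := h.2 (x + c * u) (y + c * u)
    have h3 : x + c * u - (y + c * u) = x - y := by ring
    rwa [h3] at this
  have h2 := norm_integral_le_of_norm_le_const (μ := nu) (Filter.Eventually.of_forall h1)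
  rw [Real.norm_eq_abs] at h2
  simpa using h2

lemma Lip.Tl {L : ℝ} {f : ℝ → ℝ} (h : Lip L f) (l : List ℝ) : Lip L (Tl l f) := by
  induction l with
  | nil => exact h
  | cons c l ih => exact ih.T c

/-- memoryless identity for `T`. -/
lemma T_memoryless {c : ℝ} {f : ℝ → ℝ} {s : ℝ} (hf : Integrable (fun u => f (s + c * u)) nu)
    {z : ℝ} (hz : 0 ≤ z) :
    T c f s = (∫ u in Ioc 0 z, f (s + c * u) * Real.exp (-u)) + Real.exp (-z) * T c f (s + c * z) := by
  rw [T_eq, T_eq, memoryless _ hf hz]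
  congr 2
  congr 1; funext u; congr 1; ring

lemma T_exp {c κ : ℝ} (h : c * κ < 1) (m s : ℝ) :
    T c (fun x => m * Real.exp (κ * x)) s = m * Real.exp (κ * s) / (1 - c * κ) := by
  rw [T_eq]
  have h1 : (fun u : ℝ => m * Real.exp (κ * (s + c * u)))
      = fun u => (m * Real.exp (κ * s)) * Real.exp ((c * κ) * u) := by
    funext u
    rw [mul_assoc, ← Real.exp_add]; congr 2; ring
  rw [h1, integral_const_mul, integral_exp_nu h]
  ring

lemma integrable_exp_comp {c κ : ℝ} (h : c * κ < 1) (m s : ℝ) :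
    Integrable (fun u : ℝ => m * Real.exp (κ * (s + c * u))) nu := by
  have h1 : (fun u : ℝ => m * Real.exp (κ * (s + c * u)))
      = fun u => (m * Real.exp (κ * s)) * Real.exp ((c * κ) * u) := by
    funext u
    rw [mul_assoc, ← Real.exp_add]; congr 2; ring
  rw [h1]
  exact (integrable_exp_nu h).const_mul _

end Crest.Agent.L423
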